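import Mathlib

open Polynomial Finset

namespace Vale.Agent.Results.P268.BrieskornExponents

/-- The polynomial whose roots, with multiplicity, are the products `ζ₁ ⋯ ζ_N` with `ζ_i ^ a_i = 1`,
`ζ_i ≠ 1`: the characteristic polynomial of the monodromy of the Brieskorn-Pham germ
`z₁ ^ a₁ + ⋯ + z_N ^ a_N`. -/
noncomputable def monodromyPoly {N : ℕ} (a : Fin N → ℕ) : ℂ[X] :=
  ∏ ζ ∈ Fintype.piFinset (fun i => (nthRootsFinset (a i) (1 : ℂ)).erase 1), (X - C (∏ i, ζ i))

lemma sum_pow_roots (n k : ℕ) (hn : 0 < n) :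
    ∑ z ∈ nthRootsFinset n (1 : ℂ), z ^ k = if n ∣ k then (n : ℂ) else 0 := by
  have h := Complex.isPrimitiveRoot_exp n hn.ne'
  set ω := Complex.exp (2 * Real.pi * Complex.I / n) with hω
  split_ifs with hd
  · obtain ⟨m, rfl⟩ := hd
    have : ∀ z ∈ nthRootsFinset n (1 : ℂ), z ^ (n * m) = 1 := by
      intro z hz
      have hz' := (mem_nthRootsFinset hn (1 : ℂ)).1 hz
      rw [pow_mul, hz', one_pow]
    rw [Finset.sum_congr rfl this]
    simp [h.card_nthRootsFinset]
  · have hne : ω ^ k ≠ 1 := fun hk => hd ((h.pow_eq_one_iff_dvd k).1 hk)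
    have hω0 : ω ≠ 0 := h.ne_zero hn.ne'
    have hmul : ω ^ k * ∑ z ∈ nthRootsFinset n (1 : ℂ), z ^ k
        = ∑ z ∈ nthRootsFinset n (1 : ℂ), z ^ k := by
      rw [Finset.mul_sum]
      refine Finset.sum_nbij' (fun z => ω * z) (fun z => ω⁻¹ * z) ?_ ?_ ?_ ?_ ?_
      · intro z hz
        have hz' := (mem_nthRootsFinset hn (1 : ℂ)).1 hz
        exact (mem_nthRootsFinset hn (1 : ℂ)).2 (by rw [mul_pow, h.pow_eq_one, hz', one_mul])
      · intro z hz
        have hz' := (mem_nthRootsFinset hn (1 : ℂ)).1 hz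
        exact (mem_nthRootsFinset hn (1 : ℂ)).2
          (by rw [mul_pow, inv_pow, h.pow_eq_one, hz', inv_one, one_mul])
      · intro z _
        field_simp
      · intro z _
        field_simp
      · intro z _
        rw [mul_pow]
    have : (ω ^ k - 1) * ∑ z ∈ nthRootsFinset n (1 : ℂ), z ^ k = 0 := by
      rw [sub_mul, hmul, one_mul, sub_self]
    rcases mul_eq_zero.1 this with h0 | h0
    · exact absurd (sub_eq_zero.1 h0) hne
    · exact h0

lemma sum_pow_roots_erase (n k : ℕ) (hn : 0 < n) :
    ∑ z ∈ (nthRootsFinset n (1 : ℂ)).erase 1, z ^ k = (if n ∣ k then (n : ℂ) else 0) - 1 := by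
  have h1 : (1 : ℂ) ∈ nthRootsFinset n (1 : ℂ) :=
    (mem_nthRootsFinset hn (1 : ℂ)).2 (one_pow n)
  rw [Finset.sum_erase_eq_sub h1, sum_pow_roots n k hn, one_pow]

lemma roots_monodromyPoly {N : ℕ} (a : Fin N → ℕ) :
    (monodromyPoly a).roots =
      (Fintype.piFinset (fun i => (nthRootsFinset (a i) (1 : ℂ)).erase 1)).val.map
        (fun ζ => ∏ i, ζ i) := by
  unfold monodromyPoly
  rw [Finset.prod_eq_multiset_prod]
  have := Polynomial.roots_multiset_prod_X_sub_C
    ((Fintype.piFinset (fun i => (nthRootsFinset (a i) (1 : ℂ)).erase 1)).val.map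
      (fun ζ => ∏ i, ζ i))
  rw [Multiset.map_map] at this
  exact this

lemma power_sum {N : ℕ} (a : Fin N → ℕ) (ha : ∀ i, 0 < a i) (k : ℕ) :
    (((monodromyPoly a).roots).map (fun z => z ^ k)).sum
      = ∏ i, ((if a i ∣ k then (a i : ℂ) else 0) - 1) := by
  rw [roots_monodromyPoly, Multiset.map_map]
  have h2 : ((Fintype.piFinset (fun i => (nthRootsFinset (a i) (1 : ℂ)).erase 1)).val.map
      ((fun z => z ^ k) ∘ fun ζ : (∀ _ : Fin N, ℂ) => ∏ i, ζ i)).sum
      = ∑ ζ ∈ Fintype.piFinset (fun i => (nthRootsFinset (a i) (1 : ℂ)).erase 1),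
          ∏ i, (ζ i) ^ k := by
    rw [Finset.sum_eq_multiset_sum]
    congr 1
    apply Multiset.map_congr rfl
    intro ζ _
    simp [Finset.prod_pow]
  rw [h2, ← Finset.prod_univ_sum (fun i => (nthRootsFinset (a i) (1 : ℂ)).erase 1)
    (fun _ z => z ^ k)]
  apply Finset.prod_congr rfl
  intro i _
  exact sum_pow_roots_erase (a i) k (ha i)

/-- The absolute value of a factor. -/
def w (k y : ℕ) : ℕ := if y ∣ k then y - 1 else 1

lemma natAbs_factor (k y : ℕ) (hy : 0 < y) :
    (((if y ∣ k then (y : ℤ) else 0) - 1).natAbs) = w k y := by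
  unfold w
  split_ifs
  · omega
  · simp

lemma cast_factor (k y : ℕ) :
    ((if y ∣ k then (y : ℂ) else 0) - 1) = (((if y ∣ k then (y : ℤ) else 0) - 1 : ℤ) : ℂ) := by
  split_ifs <;> simp

lemma prod_w_eq {N : ℕ} (a b : Fin N → ℕ) (ha : ∀ i, 0 < a i) (hb : ∀ i, 0 < b i)
    (h : monodromyPoly a = monodromyPoly b) (k : ℕ) :
    ∏ i, w k (a i) = ∏ i, w k (b i) := by
  have h1 := power_sum a ha k
  have h2 := power_sum b hb k
  rw [h] at h1
  have h3 : ∏ i, ((if a i ∣ k then (a i : ℂ) else 0) - 1)
      = ∏ i, ((if b i ∣ k then (b i : ℂ) else 0) - 1) := h1.symm.trans h2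
  simp only [cast_factor] at h3
  rw [← Int.cast_prod, ← Int.cast_prod] at h3
  have h4 := Int.cast_injective h3
  have h5 := congrArg Int.natAbsHom h4
  rw [map_prod, map_prod] at h5
  have h6 : ∀ y : ℕ, 0 < y → Int.natAbsHom ((if y ∣ k then (y : ℤ) else 0) - 1) = w k y :=
    fun y hy => natAbs_factor k y hy
  calc ∏ i, w k (a i) = _ := Finset.prod_congr rfl (fun i _ => (h6 (a i) (ha i)).symm)
    _ = _ := h5
    _ = ∏ i, w k (b i) := Finset.prod_congr rfl (fun i _ => h6 (b i) (hb i))

/-- Rewriting the product over indices as a product over values up to `x`. -/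
lemma prod_w_fiber {N : ℕ} (a : Fin N → ℕ) (ha : ∀ i, 2 ≤ a i) (x : ℕ) (hx : 2 ≤ x) :
    ∏ i, w x (a i) = ∏ y ∈ Finset.Icc 2 x, w x y ^ (Finset.univ.filter (fun i => a i = y)).card := by
  have h1 : ∏ i, w x (a i) = ∏ i ∈ Finset.univ.filter (fun i => a i ∈ Finset.Icc 2 x), w x (a i) := by
    symm
    apply Finset.prod_filter_of_ne
    intro i _ hne
    simp only [Finset.mem_Icc]
    refine ⟨ha i, ?_⟩
    by_contra hlt
    have hlt' : x < a i := by omega
    apply hne
    unfold w
    rw [if_neg]
    intro hdvd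
    have := Nat.le_of_dvd (by omega) hdvd
    omega
  rw [h1]
  rw [← Finset.prod_fiberwise_of_maps_to (t := Finset.Icc 2 x) (g := a)]
  · apply Finset.prod_congr rfl
    intro y hy
    have h2 : (Finset.univ.filter (fun i => a i ∈ Finset.Icc 2 x)).filter (fun i => a i = y)
        = Finset.univ.filter (fun i => a i = y) := by
      ext i
      simp only [Finset.mem_filter, Finset.mem_univ, true_and]
      constructor
      · exact fun h => h.2
      · intro h
        exact ⟨h ▸ hy, h⟩
    rw [h2, Finset.prod_congr rfl (g := fun _ => w x y)]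
    · simp
    · intro i hi
      simp only [Finset.mem_filter, Finset.mem_univ, true_and] at hi
      rw [hi]
  · intro i hi
    simpa using hi

lemma count_eq {N : ℕ} (a b : Fin N → ℕ) (ha : ∀ i, 2 ≤ a i) (hb : ∀ i, 2 ≤ b i)
    (H : ∀ k, ∏ i, w k (a i) = ∏ i, w k (b i)) :
    ∀ x, 3 ≤ x → (Finset.univ.filter (fun i => a i = x)).card
      = (Finset.univ.filter (fun i => b i = x)).card := by
  intro x
  induction x using Nat.strong_induction_on with
  | _ x ih =>
    intro hx
    have h1 := H x
    rw [prod_w_fiber a ha x (by omega), prod_w_fiber b hb x (by omega)] at h1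
    have hsplit : Finset.Icc 2 x = insert x (Finset.Ico 2 x) := by
      ext y
      simp only [Finset.mem_Icc, Finset.mem_insert, Finset.mem_Ico]
      omega
    rw [hsplit, Finset.prod_insert (by simp), Finset.prod_insert (by simp)] at h1
    have hprod : ∏ y ∈ Finset.Ico 2 x, w x y ^ (Finset.univ.filter (fun i => a i = y)).card
        = ∏ y ∈ Finset.Ico 2 x, w x y ^ (Finset.univ.filter (fun i => b i = y)).card := by
      apply Finset.prod_congr rfl
      intro y hy
      rw [Finset.mem_Ico] at hy
      by_cases h3 : 3 ≤ y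
      · rw [ih y hy.2 h3]
      · have : y = 2 := by omega
        subst this
        have : w x 2 = 1 := by
          unfold w
          split_ifs <;> rfl
        rw [this, one_pow, one_pow]
    rw [hprod] at h1
    have hpos : 0 < ∏ y ∈ Finset.Ico 2 x, w x y ^ (Finset.univ.filter (fun i => b i = y)).card := by
      apply Finset.prod_pos
      intro y hy
      rw [Finset.mem_Ico] at hy
      apply pow_pos
      unfold w
      split_ifs <;> omega
    have h2 := Nat.eq_of_mul_eq_mul_right hpos h1
    have hwx : w x x = x - 1 := by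
      unfold w
      simp
    rw [hwx] at h2
    exact Nat.pow_right_injective (by omega : 2 ≤ x - 1) h2

lemma count_multiset {N : ℕ} (a : Fin N → ℕ) (x : ℕ) :
    (Multiset.map a Finset.univ.val).count x = (Finset.univ.filter (fun i => a i = x)).card := by
  rw [Multiset.count_map]
  rw [Finset.card_def, Finset.filter_val]
  congr 1
  apply Multiset.filter_congr
  intro i _
  exact eq_comm

theorem multiset_eq {N : ℕ} (a b : Fin N → ℕ) (ha : ∀ i, 2 ≤ a i) (hb : ∀ i, 2 ≤ b i)
    (h : monodromyPoly a = monodromyPoly b) :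
    Multiset.map a Finset.univ.val = Multiset.map b Finset.univ.val := by
  have H := prod_w_eq a b (fun i => by have := ha i; omega) (fun i => by have := hb i; omega) h
  have hc := count_eq a b ha hb H
  set A := Multiset.map a Finset.univ.val with hA
  set B := Multiset.map b Finset.univ.val with hB
  have hcard : Multiset.card A = Multiset.card B := by simp [hA, hB]
  have hc3 : ∀ x, 3 ≤ x → A.count x = B.count x := by
    intro x hx
    rw [hA, hB, count_multiset, count_multiset]
    exact hc x hx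
  have hge_A : ∀ x ∈ A, 2 ≤ x := by
    intro x hx
    obtain ⟨i, _, rfl⟩ := Multiset.mem_map.1 hx
    exact ha i
  have hge_B : ∀ x ∈ B, 2 ≤ x := by
    intro x hx
    obtain ⟨i, _, rfl⟩ := Multiset.mem_map.1 hx
    exact hb i
  -- split off the twos
  have hsplitA : A = A.filter (fun x => 3 ≤ x) + A.filter (fun x => ¬ 3 ≤ x) :=
    (Multiset.filter_add_not _ _).symm
  have hsplitB : B = B.filter (fun x => 3 ≤ x) + B.filter (fun x => ¬ 3 ≤ x) :=
    (Multiset.filter_add_not _ _).symm
  have hf : A.filter (fun x => 3 ≤ x) = B.filter (fun x => 3 ≤ x) := by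
    ext x
    by_cases hx : 3 ≤ x
    · rw [Multiset.count_filter_of_pos hx, Multiset.count_filter_of_pos hx, hc3 x hx]
    · rw [Multiset.count_filter_of_neg hx, Multiset.count_filter_of_neg hx]
  have hA2 : A.filter (fun x => ¬ 3 ≤ x) = Multiset.replicate (A.filter (fun x => ¬ 3 ≤ x)).card 2 := by
    rw [Multiset.eq_replicate]
    refine ⟨rfl, ?_⟩
    intro y hy
    rw [Multiset.mem_filter] at hy
    have := hge_A y hy.1
    omega
  have hB2 : B.filter (fun x => ¬ 3 ≤ x) = Multiset.replicate (B.filter (fun x => ¬ 3 ≤ x)).card 2 := by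
    rw [Multiset.eq_replicate]
    refine ⟨rfl, ?_⟩
    intro y hy
    rw [Multiset.mem_filter] at hy
    have := hge_B y hy.1
    omega
  have hcardf : (A.filter (fun x => ¬ 3 ≤ x)).card = (B.filter (fun x => ¬ 3 ≤ x)).card := by
    have h1 := congrArg Multiset.card hsplitA
    have h2 := congrArg Multiset.card hsplitB
    rw [Multiset.card_add] at h1 h2
    rw [hf] at h1
    omega
  rw [hsplitA, hsplitB, hf, hA2, hB2, hcardf]

/-- If two Brieskorn-Pham germs in `ℂ^N` with all exponents at least two have the same monodromy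
characteristic polynomial, then their exponents agree up to order; in particular they have the same
multiplicity (the least exponent). -/
theorem result {N : ℕ} (a b : Fin N → ℕ) (ha : ∀ i, 2 ≤ a i) (hb : ∀ i, 2 ≤ b i)
    (h : monodromyPoly a = monodromyPoly b) :
    Multiset.map a Finset.univ.val = Multiset.map b Finset.univ.val ∧
      ∀ hN : 0 < N, (Finset.univ.image a).min' (by
          exact ⟨a ⟨0, hN⟩, Finset.mem_image_of_mem _ (Finset.mem_univ _)⟩)
        = (Finset.univ.image b).min' (by
          exact ⟨b ⟨0, hN⟩, Finset.mem_image_of_mem _ (Finset.mem_univ _)⟩) := by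
  have hm := multiset_eq a b ha hb h
  refine ⟨hm, ?_⟩
  intro hN
  have himg : Finset.univ.image a = Finset.univ.image b := by
    ext x
    have h1 : x ∈ Multiset.map a Finset.univ.val ↔ x ∈ Multiset.map b Finset.univ.val := by
      rw [hm]
    simpa [Multiset.mem_map, Finset.mem_image] using h1
  simp only [himg]

end Vale.Agent.Results.P268.BrieskornExponents
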